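import Mathlib

/-! # Lib/BSp/Poly (helper96): dense polynomials as nested lists of integers (low degree first). -/

set_option autoImplicit false

namespace Crest.Agent.BSp

/-- arithmetic on a type of coefficients -/
structure Ar (α : Type) where
  c : ℤ → α
  z : α
  a : α → α → α
  m : α → α → α

structure Ar.Ok {α : Type} (A : Ar α) (φ : α → ℝ) : Prop where
  c : ∀ n, φ (A.c n) = n
  z : φ A.z = 0
  a : ∀ x y, φ (A.a x y) = φ x + φ y
  m : ∀ x y, φ (A.m x y) = φ x * φ y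

section
variable {α : Type}

/-- Horner evaluation -/
def hv (φ : α → ℝ) (x : ℝ) : List α → ℝ
  | [] => 0
  | c :: l => φ c + x * hv φ x l

def ladd (A : Ar α) : List α → List α → List α
  | [], q => q
  | c :: l, [] => c :: l
  | c :: l, d :: q => A.a c d :: ladd A l q

def lsm (A : Ar α) (c : α) : List α → List α
  | [] => []
  | d :: q => A.m c d :: lsm A c q

def lmul (A : Ar α) : List α → List α → List α
  | [], _ => []
  | [c], q => lsm A c q
  | c :: d :: l, q => ladd A (lsm A c q) (A.z :: lmul A (d :: l) q)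

def Ar.lift (A : Ar α) : Ar (List α) := ⟨fun n => [A.c n], [], ladd A, lmul A⟩

theorem hv_ladd {A : Ar α} {φ : α → ℝ} (h : A.Ok φ) (x : ℝ) (l q : List α) :
    hv φ x (ladd A l q) = hv φ x l + hv φ x q := by
  induction l generalizing q with
  | nil => simp [ladd, hv]
  | cons c l ih =>
    cases q with
    | nil => simp [ladd, hv]
    | cons d q => simp only [ladd, hv, ih, h.a]; ring

theorem hv_lsm {A : Ar α} {φ : α → ℝ} (h : A.Ok φ) (x : ℝ) (c : α) (q : List α) :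
    hv φ x (lsm A c q) = φ c * hv φ x q := by
  induction q with
  | nil => simp [lsm, hv]
  | cons d q ih => simp only [lsm, hv, ih, h.m]; ring

theorem hv_lmul {A : Ar α} {φ : α → ℝ} (h : A.Ok φ) (x : ℝ) (l q : List α) :
    hv φ x (lmul A l q) = hv φ x l * hv φ x q := by
  induction l with
  | nil => simp [lmul, hv]
  | cons c l ih =>
    cases l with
    | nil => simp [lmul, hv, hv_lsm h]
    | cons d l => rw [lmul, hv_ladd h, hv_lsm h, hv, ih, h.z, hv.eq_2 φ x c]; ring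

theorem Ar.Ok.lift {A : Ar α} {φ : α → ℝ} (h : A.Ok φ) (x : ℝ) : A.lift.Ok (hv φ x) :=
  ⟨fun n => by simp [Ar.lift, hv, h.c], rfl, hv_ladd h x, hv_lmul h x⟩

theorem hv_eq_sum (φ : α → ℝ) (z : α) (hz : φ z = 0) (x : ℝ) (l : List α) {n : ℕ} (hn : l.length ≤ n) :
    hv φ x l = ∑ k ∈ Finset.range n, φ (l.getD k z) * x ^ k := by
  induction l generalizing n with
  | nil => simp [hv, hz]
  | cons c l ih =>
    obtain ⟨n, rfl⟩ : ∃ m, n = m + 1 := ⟨n - 1, by simp at hn; omega⟩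
    rw [Finset.sum_range_succ', hv, ih (n := n) (by simpa using hn), Finset.mul_sum, add_comm]
    simp only [List.getD_cons_succ, List.getD_cons_zero, pow_zero, mul_one, pow_succ]
    congr 1
    exact Finset.sum_congr rfl fun k _ => by ring

def Ar.pw (A : Ar α) (x : α) : ℕ → α
  | 0 => A.c 1
  | n + 1 => A.m x (A.pw x n)

theorem Ar.Ok.pw {A : Ar α} {φ : α → ℝ} (h : A.Ok φ) (x : α) (n : ℕ) : φ (A.pw x n) = φ x ^ n := by
  induction n with
  | zero => simp [Ar.pw, h.c]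
  | succ n ih => rw [Ar.pw, h.m, ih]; ring
end

def A0 : Ar ℤ := ⟨fun n => n, 0, Int.add, Int.mul⟩
theorem A0_ok : A0.Ok fun n : ℤ => (n : ℝ) :=
  ⟨fun _ => rfl, Int.cast_zero, fun x y => Int.cast_add x y, fun x y => Int.cast_mul x y⟩

abbrev P1 : Type := List ℤ
abbrev P2 : Type := List (List ℤ)
abbrev P3 : Type := List (List (List ℤ))
def A1 : Ar P1 := A0.lift
def A2 : Ar P2 := A1.lift
def A3 : Ar P3 := A2.lift
/-- values; the first variable is the outermost list -/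
def ev1 (x : ℝ) : P1 → ℝ := hv (fun n : ℤ => (n : ℝ)) x
def ev2 (x y : ℝ) : P2 → ℝ := hv (ev1 y) x
def ev3 (x y z : ℝ) : P3 → ℝ := hv (ev2 y z) x
theorem A1_ok (x : ℝ) : A1.Ok (ev1 x) := A0_ok.lift x
theorem A2_ok (x y : ℝ) : A2.Ok (ev2 x y) := (A1_ok y).lift x
theorem A3_ok (x y z : ℝ) : A3.Ok (ev3 x y z) := (A2_ok y z).lift x

/-- zero tests -/
def z1 (l : P1) : Bool := l.all fun a => a == 0
def z2 (l : P2) : Bool := l.all z1
def z3 (l : P3) : Bool := l.all z2
theorem hv_zero {α : Type} {φ : α → ℝ} {p : α → Bool} (h : ∀ a, p a = true → φ a = 0) (x : ℝ) (l : List α)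
    (hl : l.all p = true) : hv φ x l = 0 := by
  induction l with
  | nil => rfl
  | cons a l ih =>
    rw [List.all_cons, Bool.and_eq_true] at hl
    rw [hv, h a hl.1, ih hl.2]; ring
theorem z1_s (x : ℝ) (l : P1) (h : z1 l = true) : ev1 x l = 0 :=
  hv_zero (fun a ha => by rw [beq_iff_eq] at ha; rw [ha, Int.cast_zero]) x l h
theorem z2_s (x y : ℝ) (l : P2) (h : z2 l = true) : ev2 x y l = 0 := hv_zero (z1_s y) x l h
theorem z3_s (x y z : ℝ) (l : P3) (h : z3 l = true) : ev3 x y z l = 0 := hv_zero (z2_s y z) x l h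
/-- equality of polynomials -/
def eq2 (p q : P2) : Bool := z2 (A2.a p (A2.m (A2.c (-1)) q))
def eq3 (p q : P3) : Bool := z3 (A3.a p (A3.m (A3.c (-1)) q))
theorem eq2_s (x y : ℝ) {p q : P2} (h : eq2 p q = true) : ev2 x y p = ev2 x y q := by
  have := z2_s x y _ h
  rw [(A2_ok x y).a, (A2_ok x y).m, (A2_ok x y).c] at this
  push_cast at this
  linarith
theorem eq3_s (x y z : ℝ) {p q : P3} (h : eq3 p q = true) : ev3 x y z p = ev3 x y z q := by
  have := z3_s x y z _ h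
  rw [(A3_ok x y z).a, (A3_ok x y z).m, (A3_ok x y z).c] at this
  push_cast at this
  linarith

/-- expressions -/
inductive Ex where
  | v : ℕ → Ex
  | c : ℤ → Ex
  | a : Ex → Ex → Ex
  | m : Ex → Ex → Ex

def Ex.ev (e : ℕ → ℝ) : Ex → ℝ
  | .v i => e i
  | .c n => n
  | .a x y => x.ev e + y.ev e
  | .m x y => x.ev e * y.ev e

def Ex.pl {α : Type} (A : Ar α) (e : ℕ → α) : Ex → α
  | .v i => e i
  | .c n => A.c n
  | .a x y => A.a (x.pl A e) (y.pl A e)
  | .m x y => A.m (x.pl A e) (y.pl A e)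

theorem Ex.pl_ev {α : Type} {A : Ar α} {φ : α → ℝ} (h : A.Ok φ) (e : ℕ → α) (x : Ex) :
    φ (x.pl A e) = x.ev fun i => φ (e i) := by
  induction x with
  | v i => rfl
  | c n => exact h.c n
  | a x y hx hy => rw [Ex.pl, h.a, hx, hy, Ex.ev]
  | m x y hx hy => rw [Ex.pl, h.m, hx, hy, Ex.ev]

instance : Add Ex := ⟨Ex.a⟩
instance : Mul Ex := ⟨Ex.m⟩
instance : Sub Ex := ⟨fun x y => Ex.a x (Ex.m (Ex.c (-1)) y)⟩
instance (n : ℕ) : OfNat Ex n := ⟨Ex.c n⟩
theorem Ex.ev_add (e : ℕ → ℝ) (x y : Ex) : (x + y).ev e = x.ev e + y.ev e := rfl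
theorem Ex.ev_mul (e : ℕ → ℝ) (x y : Ex) : (x * y).ev e = x.ev e * y.ev e := rfl
theorem Ex.ev_sub (e : ℕ → ℝ) (x y : Ex) : (x - y).ev e = x.ev e - y.ev e := by
  show x.ev e + ((-1 : ℤ) : ℝ) * y.ev e = _
  push_cast; ring
theorem Ex.ev_nat (e : ℕ → ℝ) (n : ℕ) : (no_index (OfNat.ofNat n : Ex)).ev e = (n : ℝ) := Int.cast_natCast n
theorem Ex.ev_v (e : ℕ → ℝ) (i : ℕ) : (Ex.v i).ev e = e i := rfl

end Crest.Agent.BSp
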